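import Mathlib

/-!
# Pure type systems (de Bruijn presentation)

Expressions of a pure type system over a type `S` of sorts, beta reduction, the seven
typing rules, legal expressions, weak and strong normalization.
Variables are de Bruijn indices; a context is a list of expressions whose head is the
most recently declared variable.
-/

namespace Vale.Agent.H91.PTS

universe u v

/-- Expressions: variables (de Bruijn indices), sorts, application, abstraction
`lam A M` (for `fun x : A => M`) and product `pi A B` (for `Pi x : A, B`). -/
inductive Tm (S : Type u) : Type u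
  | var : ℕ → Tm S
  | sort : S → Tm S
  | app : Tm S → Tm S → Tm S
  | lam : Tm S → Tm S → Tm S
  | pi : Tm S → Tm S → Tm S

namespace Tm

variable {S : Type u}

/-- Lifting of a renaming under one binder. -/
def upRen (ξ : ℕ → ℕ) : ℕ → ℕ
  | 0 => 0
  | n + 1 => ξ n + 1

/-- Renaming of the free variables. -/
def rename : (ℕ → ℕ) → Tm S → Tm S
  | ξ, var n => var (ξ n)
  | _, sort s => sort s
  | ξ, app M N => app (rename ξ M) (rename ξ N)
  | ξ, lam A M => lam (rename ξ A) (rename (upRen ξ) M)
  | ξ, pi A B => pi (rename ξ A) (rename (upRen ξ) B)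

/-- Shifting all free variables up by one (weakening by one new variable). -/
def lift (M : Tm S) : Tm S := rename Nat.succ M

/-- Lifting of a substitution under one binder. -/
def upSub (σ : ℕ → Tm S) : ℕ → Tm S
  | 0 => var 0
  | n + 1 => lift (σ n)

/-- Simultaneous capture-avoiding substitution. -/
def subst : (ℕ → Tm S) → Tm S → Tm S
  | σ, var n => σ n
  | _, sort s => sort s
  | σ, app M N => app (subst σ M) (subst σ N)
  | σ, lam A M => lam (subst σ A) (subst (upSub σ) M)
  | σ, pi A B => pi (subst σ A) (subst (upSub σ) B)

/-- The substitution sending variable `0` to `N` and variable `n + 1` to variable `n`. -/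
def sub0 (N : Tm S) : ℕ → Tm S
  | 0 => N
  | n + 1 => var n

/-- `inst M N` is `M[x := N]` where `x` is the variable with index `0` of `M`. -/
def inst (M N : Tm S) : Tm S := subst (sub0 N) M

end Tm

open Tm

/-- One step of beta reduction: the compatible closure of
`(fun x : A => M) N  ~>  M[x := N]`; a step may occur in any subexpression,
including the domains of abstractions and products. -/
inductive Step {S : Type u} : Tm S → Tm S → Prop
  | beta (A M N : Tm S) : Step (app (lam A M) N) (inst M N)
  | appL {M M' : Tm S} (N : Tm S) : Step M M' → Step (app M N) (app M' N)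
  | appR (M : Tm S) {N N' : Tm S} : Step N N' → Step (app M N) (app M N')
  | lamL {A A' : Tm S} (M : Tm S) : Step A A' → Step (lam A M) (lam A' M)
  | lamR (A : Tm S) {M M' : Tm S} : Step M M' → Step (lam A M) (lam A M')
  | piL {A A' : Tm S} (B : Tm S) : Step A A' → Step (pi A B) (pi A' B)
  | piR (A : Tm S) {B B' : Tm S} : Step B B' → Step (pi A B) (pi A B')

/-- Beta conversion: the equivalence relation generated by `Step`. -/
def Conv {S : Type u} (M N : Tm S) : Prop := Relation.EqvGen Step M N

/-- A pure type specification over the sort type `S`: a set of axioms and a set of rules. -/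
structure Spec (S : Type u) where
  ax : S → S → Prop
  rule : S → S → S → Prop

/-- The typing relation `Γ ⊢ M : B` of the pure type system given by `P`
(rules: axiom, variable, weakening, product, abstraction, application, conversion). -/
inductive Typing {S : Type u} (P : Spec S) : List (Tm S) → Tm S → Tm S → Prop
  | ax {s1 s2 : S} : P.ax s1 s2 → Typing P [] (sort s1) (sort s2)
  | var {Γ : List (Tm S)} {A : Tm S} {s : S} :
      Typing P Γ A (sort s) → Typing P (A :: Γ) (var 0) (lift A)
  | weak {Γ : List (Tm S)} {M B A : Tm S} {s : S} :
      Typing P Γ M B → Typing P Γ A (sort s) → Typing P (A :: Γ) (lift M) (lift B)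
  | prod {Γ : List (Tm S)} {A B : Tm S} {s1 s2 s3 : S} :
      Typing P Γ A (sort s1) → Typing P (A :: Γ) B (sort s2) → P.rule s1 s2 s3 →
      Typing P Γ (pi A B) (sort s3)
  | abs {Γ : List (Tm S)} {A M B : Tm S} {s : S} :
      Typing P (A :: Γ) M B → Typing P Γ (pi A B) (sort s) → Typing P Γ (lam A M) (pi A B)
  | app {Γ : List (Tm S)} {M N A B : Tm S} :
      Typing P Γ M (pi A B) → Typing P Γ N A → Typing P Γ (app M N) (inst B N)
  | conv {Γ : List (Tm S)} {M A B : Tm S} {s : S} :
      Typing P Γ M A → Typing P Γ B (sort s) → Conv A B → Typing P Γ M B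

/-- An expression is legal if it is the subject or the type of a derivable judgment. -/
def Legal {S : Type u} (P : Spec S) (M : Tm S) : Prop :=
  ∃ (Γ : List (Tm S)) (N : Tm S), Typing P Γ M N ∨ Typing P Γ N M

/-- Weak normalization: every legal expression reduces to a beta normal form. -/
def WN {S : Type u} (P : Spec S) : Prop :=
  ∀ M : Tm S, Legal P M → ∃ N : Tm S, Relation.ReflTransGen Step M N ∧ ∀ N' : Tm S, ¬ Step N N'

/-- Strong normalization: no legal expression starts an infinite reduction sequence. -/
def SN {S : Type u} (P : Spec S) : Prop :=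
  ∀ M : Tm S, Legal P M → ¬ ∃ f : ℕ → Tm S, f 0 = M ∧ ∀ n : ℕ, Step (f n) (f (n + 1))

end Vale.Agent.H91.PTS
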