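import Vale.Agent.H91.PTSDefs

/-!
# Changing the sorts of a pure type system

`Tm.map f` applies a map `f` of sorts to an expression. It commutes with renaming and
substitution, preserves and reflects beta steps, and transports typing derivations along
morphisms of specifications. Also: every derivation uses finitely many sorts.
-/

namespace Vale.Agent.H91.PTS

universe u v

open Tm

variable {S : Type u} {S' : Type v}

/-- Apply a map of sorts to an expression. -/
def Tm.map (f : S → S') : Tm S → Tm S'
  | var n => var n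
  | sort s => sort (f s)
  | app M N => app (Tm.map f M) (Tm.map f N)
  | lam A M => lam (Tm.map f A) (Tm.map f M)
  | pi A B => pi (Tm.map f A) (Tm.map f B)

theorem map_rename (f : S → S') (M : Tm S) : ∀ ξ : ℕ → ℕ,
    Tm.map f (rename ξ M) = rename ξ (Tm.map f M) := by
  induction M with
  | var n => intro ξ; rfl
  | sort s => intro ξ; rfl
  | app M N ihM ihN => intro ξ; simp [rename, Tm.map, ihM, ihN]
  | lam A M ihA ihM => intro ξ; simp [rename, Tm.map, ihA, ihM]
  | pi A B ihA ihB => intro ξ; simp [rename, Tm.map, ihA, ihB]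

theorem map_lift (f : S → S') (M : Tm S) : Tm.map f (lift M) = lift (Tm.map f M) :=
  map_rename f M Nat.succ

theorem map_upSub (f : S → S') (σ : ℕ → Tm S) (n : ℕ) :
    Tm.map f (upSub σ n) = upSub (fun k => Tm.map f (σ k)) n := by
  cases n with
  | zero => rfl
  | succ n => simp [upSub, map_lift]

theorem map_subst (f : S → S') (M : Tm S) : ∀ σ : ℕ → Tm S,
    Tm.map f (subst σ M) = subst (fun k => Tm.map f (σ k)) (Tm.map f M) := by
  induction M with
  | var n => intro σ; rfl
  | sort s => intro σ; rfl
  | app M N ihM ihN => intro σ; simp [subst, Tm.map, ihM, ihN]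
  | lam A M ihA ihM =>
      intro σ
      have h : (fun k => Tm.map f (upSub σ k)) = upSub (fun k => Tm.map f (σ k)) :=
        funext (map_upSub f σ)
      simp [subst, Tm.map, ihA, ihM, h]
  | pi A B ihA ihB =>
      intro σ
      have h : (fun k => Tm.map f (upSub σ k)) = upSub (fun k => Tm.map f (σ k)) :=
        funext (map_upSub f σ)
      simp [subst, Tm.map, ihA, ihB, h]

theorem map_inst (f : S → S') (M N : Tm S) :
    Tm.map f (inst M N) = inst (Tm.map f M) (Tm.map f N) := by
  unfold inst
  rw [map_subst]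
  congr 1
  funext k
  cases k with
  | zero => rfl
  | succ k => rfl

theorem step_map (f : S → S') {M N : Tm S} (h : Step M N) :
    Step (Tm.map f M) (Tm.map f N) := by
  induction h with
  | beta A M N => simp only [Tm.map, map_inst]; exact Step.beta _ _ _
  | appL N _ ih => exact Step.appL _ ih
  | appR M _ ih => exact Step.appR _ ih
  | lamL M _ ih => exact Step.lamL _ ih
  | lamR A _ ih => exact Step.lamR _ ih
  | piL B _ ih => exact Step.piL _ ih
  | piR A _ ih => exact Step.piR _ ih

theorem conv_map (f : S → S') {M N : Tm S} (h : Conv M N) :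
    Conv (Tm.map f M) (Tm.map f N) := by
  unfold Conv at *
  induction h with
  | rel x y hxy => exact Relation.EqvGen.rel _ _ (step_map f hxy)
  | refl x => exact Relation.EqvGen.refl _
  | symm x y _ ih => exact Relation.EqvGen.symm _ _ ih
  | trans x y z _ _ ih1 ih2 => exact Relation.EqvGen.trans _ _ _ ih1 ih2

/-- Beta steps are reflected by maps of sorts. -/
theorem step_map_inv (f : S → S') : ∀ (M : Tm S) (X : Tm S'), Step (Tm.map f M) X →
    ∃ N : Tm S, X = Tm.map f N ∧ Step M N := by
  intro M
  induction M with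
  | var n => intro X h; cases h
  | sort s => intro X h; cases h
  | app M N ihM ihN =>
      intro X h
      generalize hY : Tm.map f (app M N) = Y at h
      cases h with
      | beta A0 M0 N0 =>
          cases M with
          | lam A1 M1 =>
              simp only [Tm.map, app.injEq, lam.injEq] at hY
              obtain ⟨⟨_, h2⟩, h3⟩ := hY
              refine ⟨inst M1 N, ?_, Step.beta _ _ _⟩
              rw [map_inst, h2, h3]
          | var n => simp [Tm.map] at hY
          | sort s => simp [Tm.map] at hY
          | app a b => simp [Tm.map] at hY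
          | pi a b => simp [Tm.map] at hY
      | appL N0 h' =>
          simp only [Tm.map, app.injEq] at hY
          obtain ⟨h1, h2⟩ := hY
          subst h1 h2
          obtain ⟨M2, rfl, hM2⟩ := ihM _ h'
          exact ⟨app M2 N, rfl, Step.appL _ hM2⟩
      | appR M0 h' =>
          simp only [Tm.map, app.injEq] at hY
          obtain ⟨h1, h2⟩ := hY
          subst h1 h2
          obtain ⟨N2, rfl, hN2⟩ := ihN _ h'
          exact ⟨app M N2, rfl, Step.appR _ hN2⟩
      | _ => simp [Tm.map] at hY
  | lam A M ihA ihM =>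
      intro X h
      generalize hY : Tm.map f (lam A M) = Y at h
      cases h with
      | beta A0 M0 N0 => simp [Tm.map] at hY
      | appL N0 h' => simp [Tm.map] at hY
      | appR M0 h' => simp [Tm.map] at hY
      | lamL M0 h' =>
          simp only [Tm.map, lam.injEq] at hY
          obtain ⟨h1, h2⟩ := hY
          subst h1 h2
          obtain ⟨A2, rfl, hA2⟩ := ihA _ h'
          exact ⟨lam A2 M, rfl, Step.lamL _ hA2⟩
      | lamR A0 h' =>
          simp only [Tm.map, lam.injEq] at hY
          obtain ⟨h1, h2⟩ := hY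
          subst h1 h2
          obtain ⟨M2, rfl, hM2⟩ := ihM _ h'
          exact ⟨lam A M2, rfl, Step.lamR _ hM2⟩
      | piL B0 h' => simp [Tm.map] at hY
      | piR A0 h' => simp [Tm.map] at hY
  | pi A B ihA ihB =>
      intro X h
      generalize hY : Tm.map f (pi A B) = Y at h
      cases h with
      | beta A0 M0 N0 => simp [Tm.map] at hY
      | appL N0 h' => simp [Tm.map] at hY
      | appR M0 h' => simp [Tm.map] at hY
      | lamL M0 h' => simp [Tm.map] at hY
      | lamR A0 h' => simp [Tm.map] at hY
      | piL B0 h' =>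
          simp only [Tm.map, pi.injEq] at hY
          obtain ⟨h1, h2⟩ := hY
          subst h1 h2
          obtain ⟨A2, rfl, hA2⟩ := ihA _ h'
          exact ⟨pi A2 B, rfl, Step.piL _ hA2⟩
      | piR A0 h' =>
          simp only [Tm.map, pi.injEq] at hY
          obtain ⟨h1, h2⟩ := hY
          subst h1 h2
          obtain ⟨B2, rfl, hB2⟩ := ihB _ h'
          exact ⟨pi A B2, rfl, Step.piR _ hB2⟩

theorem star_map_inv (f : S → S') (M : Tm S) (X : Tm S')
    (h : Relation.ReflTransGen Step (Tm.map f M) X) :
    ∃ N : Tm S, X = Tm.map f N ∧ Relation.ReflTransGen Step M N := by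
  induction h with
  | refl => exact ⟨M, rfl, Relation.ReflTransGen.refl⟩
  | tail _ hstep ih =>
      obtain ⟨N, rfl, hN⟩ := ih
      obtain ⟨N2, rfl, hN2⟩ := step_map_inv f N _ hstep
      exact ⟨N2, rfl, Relation.ReflTransGen.tail hN hN2⟩

/-- Typing is transported along a map of sorts that preserves axioms and rules. -/
theorem typing_map (f : S → S') {P : Spec S} {Q : Spec S'}
    (hax : ∀ a b, P.ax a b → Q.ax (f a) (f b))
    (hrule : ∀ a b c, P.rule a b c → Q.rule (f a) (f b) (f c))
    {Γ : List (Tm S)} {M B : Tm S} (h : Typing P Γ M B) :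
    Typing Q (Γ.map (Tm.map f)) (Tm.map f M) (Tm.map f B) := by
  induction h with
  | ax h => exact Typing.ax (hax _ _ h)
  | var _ ih =>
      simp only [List.map_cons, map_lift]
      exact Typing.var ih
  | weak _ _ ih1 ih2 =>
      simp only [List.map_cons, map_lift]
      exact Typing.weak ih1 ih2
  | prod _ _ hr ih1 ih2 =>
      exact Typing.prod ih1 ih2 (hrule _ _ _ hr)
  | abs _ _ ih1 ih2 =>
      exact Typing.abs ih1 ih2
  | app _ _ ih1 ih2 =>
      simp only [map_inst]
      exact Typing.app ih1 ih2
  | conv _ _ hc ih1 ih2 =>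
      exact Typing.conv ih1 ih2 (conv_map f hc)

/-- Legal expressions are transported along a map of sorts preserving axioms and rules. -/
theorem legal_map (f : S → S') {P : Spec S} {Q : Spec S'}
    (hax : ∀ a b, P.ax a b → Q.ax (f a) (f b))
    (hrule : ∀ a b c, P.rule a b c → Q.rule (f a) (f b) (f c))
    {M : Tm S} (h : Legal P M) : Legal Q (Tm.map f M) := by
  obtain ⟨Γ, N, hT⟩ := h
  rcases hT with h | h
  · exact ⟨_, _, Or.inl (typing_map f hax hrule h)⟩
  · exact ⟨_, _, Or.inr (typing_map f hax hrule h)⟩

/-- Weak normalization is inherited backwards along a map of sorts preserving axioms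
and rules. -/
theorem wn_of_map (f : S → S') {P : Spec S} {Q : Spec S'}
    (hax : ∀ a b, P.ax a b → Q.ax (f a) (f b))
    (hrule : ∀ a b c, P.rule a b c → Q.rule (f a) (f b) (f c))
    (h : WN Q) : WN P := by
  intro M hM
  obtain ⟨X, hX, hnf⟩ := h _ (legal_map f hax hrule hM)
  obtain ⟨N2, rfl, hN2⟩ := star_map_inv f M X hX
  exact ⟨N2, hN2, fun N3 h3 => hnf _ (step_map f h3)⟩

/-- Strong normalization is inherited backwards along a map of sorts preserving axioms
and rules. -/
theorem sn_of_map (f : S → S') {P : Spec S} {Q : Spec S'}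
    (hax : ∀ a b, P.ax a b → Q.ax (f a) (f b))
    (hrule : ∀ a b c, P.rule a b c → Q.rule (f a) (f b) (f c))
    (h : SN Q) : SN P := by
  intro M hM hinf
  obtain ⟨g, hg0, hg⟩ := hinf
  exact h _ (legal_map f hax hrule hM)
    ⟨fun n => Tm.map f (g n), by simp only [hg0], fun n => step_map f (hg n)⟩

/-- Typing is monotone in the specification. -/
theorem typing_mono {P Q : Spec S}
    (hax : ∀ a b, P.ax a b → Q.ax a b)
    (hrule : ∀ a b c, P.rule a b c → Q.rule a b c)
    {Γ : List (Tm S)} {M B : Tm S} (h : Typing P Γ M B) : Typing Q Γ M B := by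
  induction h with
  | ax h => exact Typing.ax (hax _ _ h)
  | var _ ih => exact Typing.var ih
  | weak _ _ ih1 ih2 => exact Typing.weak ih1 ih2
  | prod _ _ hr ih1 ih2 => exact Typing.prod ih1 ih2 (hrule _ _ _ hr)
  | abs _ _ ih1 ih2 => exact Typing.abs ih1 ih2
  | app _ _ ih1 ih2 => exact Typing.app ih1 ih2
  | conv _ _ hc ih1 ih2 => exact Typing.conv ih1 ih2 hc

/-- Every derivation uses an axiom. -/
theorem typing_exists_ax {P : Spec S} {Γ : List (Tm S)} {M B : Tm S} (h : Typing P Γ M B) :
    ∃ a b, P.ax a b := by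
  induction h with
  | ax h => exact ⟨_, _, h⟩
  | var _ ih => exact ih
  | weak _ _ ih1 _ => exact ih1
  | prod _ _ _ ih1 _ => exact ih1
  | abs _ _ ih1 _ => exact ih1
  | app _ _ ih1 _ => exact ih1
  | conv _ _ _ ih1 _ => exact ih1

/-- The restriction of a specification to the axioms and rules all of whose sorts lie
in a finite set `L`. -/
def Spec.restrict (P : Spec S) (L : Finset S) : Spec S where
  ax a b := P.ax a b ∧ a ∈ L ∧ b ∈ L
  rule a b c := P.rule a b c ∧ a ∈ L ∧ b ∈ L ∧ c ∈ L

theorem typing_restrict_mono (P : Spec S) {L L' : Finset S} (hL : L ⊆ L')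
    {Γ : List (Tm S)} {M B : Tm S} (h : Typing (P.restrict L) Γ M B) :
    Typing (P.restrict L') Γ M B :=
  typing_mono (P := P.restrict L) (Q := P.restrict L')
    (fun _ _ h0 => ⟨h0.1, hL h0.2.1, hL h0.2.2⟩)
    (fun _ _ _ h0 => ⟨h0.1, hL h0.2.1, hL h0.2.2.1, hL h0.2.2.2⟩) h

/-- Every derivation only uses finitely many axioms and rules. -/
theorem typing_finite_support [DecidableEq S] {P : Spec S} {Γ : List (Tm S)} {M B : Tm S}
    (h : Typing P Γ M B) : ∃ L : Finset S, Typing (P.restrict L) Γ M B := by
  induction h with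
  | @ax s1 s2 h =>
      exact ⟨{s1, s2}, Typing.ax ⟨h, by simp, by simp⟩⟩
  | var _ ih =>
      obtain ⟨L, hL⟩ := ih
      exact ⟨L, Typing.var hL⟩
  | weak _ _ ih1 ih2 =>
      obtain ⟨L1, hL1⟩ := ih1
      obtain ⟨L2, hL2⟩ := ih2
      exact ⟨L1 ∪ L2, Typing.weak (typing_restrict_mono P Finset.subset_union_left hL1)
        (typing_restrict_mono P Finset.subset_union_right hL2)⟩
  | @prod Γ A B s1 s2 s3 _ _ hr ih1 ih2 =>
      obtain ⟨L1, hL1⟩ := ih1
      obtain ⟨L2, hL2⟩ := ih2
      refine ⟨(L1 ∪ L2) ∪ {s1, s2, s3}, Typing.prod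
        (typing_restrict_mono P (Finset.subset_union_left.trans Finset.subset_union_left) hL1)
        (typing_restrict_mono P (Finset.subset_union_right.trans Finset.subset_union_left) hL2)
        ⟨hr, by simp, by simp, by simp⟩⟩
  | abs _ _ ih1 ih2 =>
      obtain ⟨L1, hL1⟩ := ih1
      obtain ⟨L2, hL2⟩ := ih2
      exact ⟨L1 ∪ L2, Typing.abs (typing_restrict_mono P Finset.subset_union_left hL1)
        (typing_restrict_mono P Finset.subset_union_right hL2)⟩
  | app _ _ ih1 ih2 =>
      obtain ⟨L1, hL1⟩ := ih1
      obtain ⟨L2, hL2⟩ := ih2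
      exact ⟨L1 ∪ L2, Typing.app (typing_restrict_mono P Finset.subset_union_left hL1)
        (typing_restrict_mono P Finset.subset_union_right hL2)⟩
  | conv _ _ hc ih1 ih2 =>
      obtain ⟨L1, hL1⟩ := ih1
      obtain ⟨L2, hL2⟩ := ih2
      exact ⟨L1 ∪ L2, Typing.conv (typing_restrict_mono P Finset.subset_union_left hL1)
        (typing_restrict_mono P Finset.subset_union_right hL2) hc⟩

end Vale.Agent.H91.PTS
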